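import Vale.Agent.P150L.Sg

/-! A pointwise curvature bound. -/

set_option linter.unusedSectionVars false

namespace Vale.Agent.P150L

open Real Finset Function Vale.Agent.P150

noncomputable section

variable {ι : Type} [Fintype ι] [DecidableEq ι] {W f g : (ι → Bool) → ℝ} {J : ι → ι → ℝ}

/-- Rough bounds on the interaction matrix. -/
structure Bd (J : ι → ι → ℝ) : Prop where
  symm : ∀ i j, J i j = J j i
  diag : ∀ i, J i i = 0
  quad : ∀ u : ι → ℝ, |∑ i, ∑ j, J i j * u i * u j| ≤ 4 * ∑ i, u i ^ 2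
  row : ∀ i, ∑ j, J i j ^ 2 ≤ 8
  small : ∀ i j, |J i j| ≤ 1 / 100

/-- The square of the gradient. -/
def Nw (g : (ι → Bool) → ℝ) (x : ι → Bool) : ℝ := ∑ j, dd j g x ^ 2

theorem Qw_eq (hW : ∀ x, 0 < W x) (i : ι) (g : (ι → Bool) → ℝ) (x : ι → Bool) : Qw W i g x =
    (g (update x i true) + g (update x i false)) / 2 + mw W i x * dd i g x := by
  have := (add_pos (hW (update x i true)) (hW (update x i false))).ne'
  rw [Qw, mw, dd]
  field_simp
  ring

theorem Qw_sq (hW : ∀ x, 0 < W x) (i : ι) (g : (ι → Bool) → ℝ) (x : ι → Bool) :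
    Qw W i (fun y => g y ^ 2) x - g x ^ 2 = 2 * g x * (Qw W i g x - g x) +
      2 * (1 - spin (x i) * mw W i x) * dd i g x ^ 2 := by
  have e : g x = g (update x i (x i)) := by rw [update_eq_self]
  rw [Qw_eq hW, Qw_eq hW, e, dd, dd]
  cases x i <;> simp only [spin_true, spin_false] <;> ring

theorem comm_eq (hW : ∀ x, 0 < W x) {i j : ι} (hij : i ≠ j) (g : (ι → Bool) → ℝ) (x : ι → Bool) :
    dd j (Qw W i g) x = Qw W i (dd j g) x +
      dd j (mw W i) x * (dd i g x - 2 * spin (x j) * dd i (dd j g) x) := by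
  have e : mw W i x = mw W i (update x j (x j)) := by rw [update_eq_self]
  have e' : ∀ b, g (update x i b) = g (update (update x i b) j (x j)) := fun b => by
    rw [← update_of_ne hij.symm b x, update_eq_self]
  rw [Qw_eq hW, e]
  simp only [dd, Qw_eq hW, update_comm hij.symm, e']
  cases x j <;> simp only [spin_true, spin_false] <;> ring

theorem mw_dd (hJ : Bd J) {i j : ι} (hij : i ≠ j) (x : ι → Bool) :
    ∃ w, dd j (mw (isw J fun _ => 0) i) x = (1 - mw (isw J fun _ => 0) i x ^ 2) * w ∧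
      |w - J i j| ≤ 4 * J i j ^ 2 := by
  have hW := isw_pos J fun _ => 0
  obtain ⟨C, s, s', hC, h1, h2, h3⟩ := isw_pair hJ.symm hJ.diag (fun _ => 0) x i j
  obtain ⟨t1, t2⟩ := abs_tanh_bounds (J i j)
  have t3 := hJ.small i j
  generalize tanh (J i j) = τ at *
  have ht : |τ| ≤ 1 / 100 := t1.trans t3
  have hu : ∀ b', |s * spin b' * τ| ≤ |τ| := fun b' => by
    rw [abs_mul, abs_mul, abs_spin, mul_one]
    exact mul_le_of_le_one_left (abs_nonneg _) h1
  have m1 : ∀ b', mw (isw J fun _ => 0) i (update x j b') = cm s τ (spin b') := by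
    intro b'
    have a1 := hW (update (update x i true) j b')
    have a2 := hW (update (update x i false) j b')
    have a3 := abs_le.1 ((hu b').trans ht)
    rw [mw, update_comm hij.symm, update_comm hij.symm, cm,
      div_eq_div_iff (add_pos a1 a2).ne' (by linarith), h3, h3]
    simp only [spin_true, spin_false]
    ring
  have m2 : mw (isw J fun _ => 0) i x = cm s τ (spin (x j)) := by rw [← m1, update_eq_self]
  have a1 := abs_le.1 ((hu true).trans ht)
  have a2 := abs_le.1 ht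
  have a3 := abs_le.1 ((hu (x j)).trans ht)
  have a4 : 0 < 1 - τ ^ 2 := by nlinarith
  refine ⟨τ * (1 + s * spin (x j) * τ) / ((1 - s * spin (x j) * τ) * (1 - τ ^ 2)), ?_, ?_⟩
  · rw [dd, m1, m1, m2]
    rw [spin_true, mul_one] at a1
    have b1 : 1 + s * τ ≠ 0 := by linarith
    have b2 : 1 - s * τ ≠ 0 := by linarith
    have b3 := a4.ne'
    cases x j <;> simp only [cm, spin_true, spin_false, mul_one, mul_neg, neg_mul, sub_neg_eq_add,
      ← sub_eq_add_neg] <;> field_simp <;> ring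
  · have hu' := hu (x j)
    generalize s * spin (x j) * τ = u at *
    have b1 : 0 < (1 - u) * (1 - τ ^ 2) := mul_pos (by linarith) a4
    have b2 : |τ * (1 + u) / ((1 - u) * (1 - τ ^ 2)) - τ| ≤ 3 * τ ^ 2 := by
      rw [div_sub' b1.ne', abs_div, abs_of_pos b1, div_le_iff₀ b1,
        show τ * (1 + u) - (1 - u) * (1 - τ ^ 2) * τ = τ * (2 * u + τ ^ 2 * (1 - u)) by ring, abs_mul]
      have c1 : |2 * u + τ ^ 2 * (1 - u)| ≤ 2.5 * |τ| := by
        refine (abs_add_le _ _).trans ?_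
        rw [abs_mul, abs_two, abs_of_nonneg (mul_nonneg (sq_nonneg τ) (by linarith : 0 ≤ 1 - u)),
          ← sq_abs]
        nlinarith [abs_nonneg τ, mul_nonneg (abs_nonneg τ) (abs_nonneg τ)]
      have c2 : 0.9 ≤ (1 - u) * (1 - τ ^ 2) := by nlinarith
      have c3 := mul_le_mul_of_nonneg_left c1 (abs_nonneg τ)
      nlinarith [sq_abs τ, sq_nonneg τ]
    have b3 : τ ^ 2 ≤ J i j ^ 2 := sq_le_sq.2 t1
    have b4 : |J i j| ^ 3 ≤ J i j ^ 2 := by
      rw [pow_succ, sq_abs]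
      exact mul_le_of_le_one_right (sq_nonneg _) (by linarith)
    have b5 := abs_sub_le (τ * (1 + u) / ((1 - u) * (1 - τ ^ 2))) τ (J i j)
    linarith

theorem term_le {G G' H m y y' w a : ℝ} (hm : |m| ≤ 1) (hy : y = 1 ∨ y = -1) (hy' : y' = 1 ∨ y' = -1)
    (hw : |w - a| ≤ 4 * a ^ 2) (ha : |a| ≤ 1 / 100) :
    2 * G * ((1 - m ^ 2) * w * (G' - 2 * y' * H)) - 2 * (1 - y * m) * H ^ 2 ≤
      2 * (a * ((1 - m ^ 2) * G') * G) + a ^ 2 * (4 * G' ^ 2 + 20 * G ^ 2) := by
  have h1 := abs_le.1 hm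
  obtain ⟨v, hv⟩ : ∃ v, v = 1 - m ^ 2 := ⟨_, rfl⟩
  have v0 : 0 ≤ v := by nlinarith
  have v1 : v ≤ 1 := by nlinarith [sq_nonneg m]
  have v2 : v ≤ 2 * (1 - y * m) := by rcases hy with rfl | rfl <;> nlinarith [sq_nonneg (m - 1), sq_nonneg (m + 1)]
  rw [← hv]
  have w1 : |w| ≤ 2 * |a| := by
    have := abs_sub_abs_le_abs_sub w a
    nlinarith [sq_abs a, abs_nonneg a]
  have w2 : w ^ 2 ≤ 4 * a ^ 2 := by nlinarith [sq_abs w, sq_abs a, abs_nonneg w, abs_nonneg a]
  have b1 : 2 * G * G' * (v * (w - a)) ≤ a ^ 2 * (4 * G' ^ 2 + 4 * G ^ 2) := by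
    refine (le_abs_self _).trans ?_
    rw [abs_mul, abs_mul v, abs_of_nonneg v0]
    have c1 : |2 * G * G'| ≤ G' ^ 2 + G ^ 2 :=
      abs_le.2 ⟨by nlinarith [sq_nonneg (G + G')], by nlinarith [sq_nonneg (G - G')]⟩
    have c2 : v * |w - a| ≤ 4 * a ^ 2 := (mul_le_of_le_one_left (abs_nonneg _) v1).trans hw
    exact (mul_le_mul c1 c2 (by positivity) (by positivity)).trans_eq (by ring)
  have b2 : -(4 * y' * w * G * H) - H ^ 2 ≤ 4 * w ^ 2 * G ^ 2 := by
    rcases hy' with rfl | rfl <;> nlinarith [sq_nonneg (H + 2 * w * G), sq_nonneg (H - 2 * w * G)]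
  have b3 := mul_le_mul_of_nonneg_left b2 v0
  have b4 : v * (4 * w ^ 2 * G ^ 2) ≤ 16 * a ^ 2 * G ^ 2 :=
    (mul_le_of_le_one_left (by positivity) v1).trans (by nlinarith [sq_nonneg G])
  have b5 := mul_le_mul_of_nonneg_right v2 (sq_nonneg H)
  nlinarith

theorem polar (hJ : Bd J) (a b : ι → ℝ) :
    ∑ i, ∑ j, 2 * (J i j * a i * b j) ≤ 4 * (∑ i, a i ^ 2 + ∑ i, b i ^ 2) := by
  have h1 := (abs_le.1 (hJ.quad fun i => a i + b i)).2
  have h2 := (abs_le.1 (hJ.quad fun i => a i - b i)).1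
  have h3 : ∑ i, ∑ j, J i j * b i * a j = ∑ i, ∑ j, J i j * a i * b j := by
    rw [sum_comm]
    exact sum_congr rfl fun i _ => sum_congr rfl fun j _ => by rw [hJ.symm]; ring
  have h4 : ∑ i, ∑ j, J i j * (a i + b i) * (a j + b j) - ∑ i, ∑ j, J i j * (a i - b i) * (a j - b j) =
      2 * ∑ i, ∑ j, J i j * b i * a j + 2 * ∑ i, ∑ j, J i j * a i * b j := by
    simp only [mul_sum, ← sum_sub_distrib, ← sum_add_distrib]
    exact sum_congr rfl fun i _ => sum_congr rfl fun j _ => by ring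
  have h5 : ∑ i, (a i + b i) ^ 2 + ∑ i, (a i - b i) ^ 2 = 2 * (∑ i, a i ^ 2 + ∑ i, b i ^ 2) := by
    simp only [mul_sum, ← sum_add_distrib]
    exact sum_congr rfl fun i _ => by ring
  simp only [← mul_sum]
  linarith

theorem gam_le (hW : ∀ x, 0 < W x) (g : (ι → Bool) → ℝ) (x : ι → Bool) :
    Lw W (fun y => g y ^ 2) x ≤ 2 * g x * Lw W g x + 4 * Nw g x := by
  simp only [Lw, Nw, Qw_sq hW, mul_sum, ← sum_add_distrib]
  refine sum_le_sum fun i _ => add_le_add le_rfl (mul_le_mul_of_nonneg_right ?_ (sq_nonneg _))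
  have := abs_le.1 (abs_mw_le hW (i := i) x)
  rcases spin_or (x i) with e | e <;> rw [e] <;> linarith [this.1, this.2]

theorem curv (hJ : Bd J) (g : (ι → Bool) → ℝ) (x : ι → Bool) :
    ∑ j, 2 * dd j g x * dd j (Lw (isw J fun _ => 0) g) x ≤
      Lw (isw J fun _ => 0) (Nw g) x + 200 * Nw g x := by
  have hW := isw_pos J fun _ => 0
  have hm := fun i j (h : i ≠ j) => mw_dd hJ h x
  generalize isw J (fun _ => 0) = W at *
  have e1 : Lw W (Nw g) x = ∑ i, ∑ j, (Qw W i (fun y => dd j g y ^ 2) x - dd j g x ^ 2) := by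
    refine sum_congr rfl fun i _ => ?_
    simp only [Nw, Qw, mul_sum, sum_sub_distrib, ← sum_add_distrib, sum_div]
  have e2 : ∑ j, 2 * dd j g x * dd j (Lw W g) x =
      ∑ i, ∑ j, 2 * dd j g x * (dd j (Qw W i g) x - dd j g x) := by
    rw [sum_comm]
    refine sum_congr rfl fun j _ => ?_
    rw [← mul_sum]
    congr 1
    simp only [dd, Lw, ← sum_sub_distrib, sum_div]
    exact sum_congr rfl fun i _ => by ring
  have h1 : ∀ i j, 2 * dd j g x * (dd j (Qw W i g) x - dd j g x) ≤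
      (Qw W i (fun y => dd j g y ^ 2) x - dd j g x ^ 2) +
      (2 * (J i j * ((1 - mw W i x ^ 2) * dd i g x) * dd j g x) +
        (4 * (J i j ^ 2 * dd i g x ^ 2) + 20 * (J j i ^ 2 * dd j g x ^ 2))) := fun i j => by
    rcases eq_or_ne i j with rfl | hij
    · have a : dd i (Qw W i g) x = 0 := by simp only [dd, ind_Qw W i g x, sub_self, zero_div]
      rw [a, hJ.diag, Qw_of_ind hW (g := fun y => dd i g y ^ 2) fun y b => by
        simp only [ind_dd i g y b]]
      nlinarith [sq_nonneg (dd i g x)]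
    · obtain ⟨w, w1, w2⟩ := hm i j hij
      have := term_le (G := dd j g x) (G' := dd i g x) (H := dd i (dd j g) x) (abs_mw_le hW (i := i) x)
        (spin_or (x i)) (spin_or (x j)) w2 (hJ.small i j)
      rw [Qw_sq hW, comm_eq hW hij, w1, hJ.symm j i]
      linarith
  have h2 := sum_le_sum fun i (_ : i ∈ univ) => sum_le_sum fun j (_ : j ∈ univ) => h1 i j
  have h3 := polar hJ (fun i => (1 - mw W i x ^ 2) * dd i g x) fun i => dd i g x
  have h4 : ∑ i, ((1 - mw W i x ^ 2) * dd i g x) ^ 2 ≤ ∑ i, dd i g x ^ 2 := sum_le_sum fun i _ => by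
    have a := mw_sq_le hW (i := i) x
    rw [mul_pow]
    exact mul_le_of_le_one_left (sq_nonneg _) (by nlinarith [sq_nonneg (mw W i x)])
  have h5 : ∑ i, ∑ j, J i j ^ 2 * dd i g x ^ 2 ≤ 8 * ∑ i, dd i g x ^ 2 := by
    rw [mul_sum]
    refine sum_le_sum fun i _ => ?_
    rw [← sum_mul]
    exact mul_le_mul_of_nonneg_right (hJ.row i) (sq_nonneg _)
  have h6 : ∑ i, ∑ j, J j i ^ 2 * dd j g x ^ 2 = ∑ i, ∑ j, J i j ^ 2 * dd i g x ^ 2 := sum_comm
  simp only [sum_add_distrib, ← mul_sum] at h2 h3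
  rw [e1, e2, Nw]
  linarith

end

end Vale.Agent.P150L
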