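import Vale.Agent.P150L.BE
import Vale.Agent.P150.Final
import Vale.Agent.P150C.Eig

/-! The logarithmic lower bound for the mixing time. -/

set_option linter.unusedSectionVars false

namespace Vale.Agent.P150L

open Real Finset Function Vale.Agent.P150 Filter Topology

noncomputable section

section Gen
variable {ι : Type} [Fintype ι] [DecidableEq ι] [Nonempty ι] {W f : (ι → Bool) → ℝ} {J : ι → ι → ℝ}
  {Q : ι → Matrix (ι → Bool) (ι → Bool) ℝ}

theorem Lw_aff (hW : ∀ x, 0 < W x) (a b : ℝ) (f : (ι → Bool) → ℝ) (x : ι → Bool) :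
    Lw W (fun y => a * f y + b) x = a * Lw W f x := by
  simp only [Lw, mul_sum, Qw_eq hW, dd]
  exact sum_congr rfl fun i _ => by ring

theorem grad_le (hJ : Bd J) (hQ : ∀ i f, (Q i).mulVec f = Qw (isw J fun _ => 0) i f) {c t : ℝ}
    (ht : 0 ≤ t) (h : ∀ y, Nw f y ≤ c) (x : ι → Bool) : Nw (Tw Q t f) x ≤ exp (200 * t) * c := by
  have hW := isw_pos J fun _ => 0
  have h1 := cmp hW hQ ht (F := fun s y => exp (-200 * s) * Nw (Tw Q s f) y + 0)
    (F' := fun s y => exp (-200 * s) * (-200 * 1) * Nw (Tw Q s f) y + exp (-200 * s) *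
      ∑ j, 2 * dd j (Tw Q s f) y * dd j (Lw (isw J fun _ => 0) (Tw Q s f)) y) (fun s y => ?_)
    (fun s _ y => ?_) x
  · simp only [mul_zero, exp_zero, one_mul, add_zero, Tw_zero] at h1
    have h2 := (h1.trans (Tw_mono hW hQ ht h x)).trans_eq (Tw_const hW hQ t c x)
    have h3 := mul_le_mul_of_nonneg_left h2 (exp_pos (200 * t)).le
    rwa [← mul_assoc, ← exp_add, show 200 * t + -200 * t = 0 by ring, exp_zero, one_mul] at h3
  · refine (((hasDerivAt_id s).const_mul (-200)).exp.mul (HasDerivAt.fun_sum fun j _ => ?_)).add_const 0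
    have := (((Tw_deriv hQ f s (update y j true)).sub (Tw_deriv hQ f s (update y j false))).div_const
      2).pow 2
    exact this.congr_deriv (by simp [dd])
  · rw [Lw_aff hW]
    have := mul_le_mul_of_nonneg_left (curv hJ (Tw Q s f) y) (exp_pos (-200 * s)).le
    linarith

theorem var_le (hJ : Bd J) (hQ : ∀ i f, (Q i).mulVec f = Qw (isw J fun _ => 0) i f) {c t : ℝ}
    (hc : 0 ≤ c) (ht : 0 ≤ t) (h : ∀ y, Nw f y ≤ c) (x : ι → Bool) :
    Tw Q t (fun y => f y ^ 2) x ≤ Tw Q t f x ^ 2 + 4 * (exp (200 * t) * c) * t := by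
  have hW := isw_pos J fun _ => 0
  have h1 := cmp hW hQ ht (F := fun s y => -1 * Tw Q s f y ^ 2 + -(4 * (exp (200 * t) * c)) * s)
    (F' := fun s y => -1 * (2 * Tw Q s f y * Lw (isw J fun _ => 0) (Tw Q s f) y) +
      -(4 * (exp (200 * t) * c)) * 1) (fun s y => ?_) (fun s hs y => ?_) x
  · have h2 := Tw_lin (Q := Q) t (-1) 0 (fun y => f y ^ 2) f x
    simp only [Tw_zero, mul_zero, zero_mul] at h1 h2
    linarith
  · exact ((((Tw_deriv hQ f s y).pow 2).congr_deriv (by simp)).const_mul (-1)).add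
      ((hasDerivAt_id s).const_mul _)
  · rw [Lw_aff hW (-1) _ fun y => Tw Q s f y ^ 2]
    have a1 := gam_le hW (Tw Q s f) y
    have a2 := grad_le hJ hQ hs.1 h y
    have a3 : exp (200 * s) * c ≤ exp (200 * t) * c :=
      mul_le_mul_of_nonneg_right (exp_le_exp.2 (by linarith [hs.2])) hc
    linarith

theorem stay_le (hW : ∀ x, 0 < W x) (hQ : ∀ i f, (Q i).mulVec f = Qw W i f) {t : ℝ} (ht : 0 ≤ t)
    (i : ι) (x : ι → Bool) : 1 - 2 * t ≤ spin (x i) * Tw Q t (fun y => spin (y i)) x := by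
  have h0 : ∀ y : ι → Bool, 0 ≤ spin (x i) * spin (y i) + 1 := fun y => by
    cases x i <;> cases y i <;> simp
  have h1 := cmp hW hQ ht (F := fun s y => exp (-s) * (spin (x i) * spin (y i) + 1) + 0)
    (F' := fun s y => exp (-s) * -1 * (spin (x i) * spin (y i) + 1))
    (fun s y => ((hasDerivAt_neg s).exp.mul_const _).add_const 0) (fun s _ y => ?_) x
  · have h2 := Tw_lin (Q := Q) t (spin (x i)) 1 (fun y => spin (y i)) (fun _ => 1) x
    simp only [neg_zero, exp_zero, one_mul, add_zero, mul_one, Tw_const hW hQ] at h1 h2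
    rw [h2, ← sq, spin_sq] at h1
    linarith [add_one_le_exp (-t)]
  · rw [Lw_aff hW (exp (-s)) 0 fun y => spin (x i) * spin (y i) + 1, mul_assoc]
    refine mul_le_mul_of_nonneg_left ?_ (exp_pos _).le
    rw [Lw, sum_eq_single i (fun j _ hj => by
      rw [Qw_of_ind hW (fun z b => by simp only [update_of_ne hj.symm]), sub_self]) (by simp)]
    have := Qw_mono hW h0 i y
    rw [Qw_const hW] at this
    linarith

theorem corr_ge (hW : ∀ x, 0 < W x) (hQ : ∀ i f, (Q i).mulVec f = Qw W i f) (i : ι) {t : ℝ}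
    (ht : 0 ≤ t) : exp (-4 * t) * ∑ y, W y ≤
      Ex W fun x => spin (x i) * Tw Q t (fun y => spin (y i)) x := by
  have hZ := sumW_pos hW
  have key : ∀ (k : ℕ) (t : ℝ), 0 ≤ t → t ≤ 2 ^ k / 4 → exp (-4 * t) * ∑ y, W y ≤
      Ex W fun x => spin (x i) * Tw Q t (fun y => spin (y i)) x := fun k => by
    induction k with
    | zero =>
      intro t h0 h1
      have a1 := Ex_mono hW (stay_le hW hQ h0 i)
      rw [Ex_const] at a1
      refine le_trans (mul_le_mul_of_nonneg_right ?_ hZ.le) a1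
      have a2 := add_one_le_exp (4 * t)
      rw [neg_mul, exp_neg, inv_le_iff_one_le_mul₀ (exp_pos _)]
      norm_num at h1
      nlinarith [mul_le_mul_of_nonneg_left a2 (by linarith : 0 ≤ 1 - 2 * t)]
    | succ k ih =>
      intro t h0 h1
      have a1 := ih (t / 2) (by linarith) (by rw [pow_succ] at h1; linarith)
      have a2 : Tw Q t (fun y => spin (y i)) = Tw Q (t / 2) (Tw Q (t / 2) fun y => spin (y i)) := by
        rw [← Tw_add, add_halves]
      have a3 : exp (-4 * t) = exp (-4 * (t / 2)) ^ 2 := by rw [sq, ← exp_add]; ring_nf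
      rw [a2, Tw_symm hW hQ, a3]
      have a0 := exp_pos (-4 * (t / 2))
      generalize exp (-4 * (t / 2)) = c at *
      generalize Tw Q (t / 2) (fun y => spin (y i)) = u at *
      have a4 := Ex_mono hW (f := fun x => 2 * c * (spin (x i) * u x) - c ^ 2)
        (g := fun x => u x * u x) fun x => by
          nlinarith [sq_nonneg (u x - c * spin (x i)), spin_sq (x i)]
      rw [Ex_sub, Ex_mul, Ex_const] at a4
      nlinarith [mul_le_mul_of_nonneg_left a1 a0.le]
  obtain ⟨k, hk⟩ := pow_unbounded_of_one_lt (4 * t) (one_lt_two (α := ℝ))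
  exact key k t ht (by linarith)

theorem exists_start (hW : ∀ x, 0 < W x) (hQ : ∀ i f, (Q i).mulVec f = Qw W i f) {t : ℝ}
    (ht : 0 ≤ t) : ∃ x, Fintype.card ι * exp (-4 * t) ≤
      Tw Q t (fun y => ∑ i, spin (x i) * spin (y i)) x := by
  have h1 := sum_le_sum fun i (_ : i ∈ univ) => corr_ge hW hQ i ht
  rw [← Ex_sum, sum_const, card_univ, nsmul_eq_mul, ← mul_assoc, ← Ex_const] at h1
  obtain ⟨x, -, hx⟩ := exists_le_of_sum_le univ_nonempty h1
  exact ⟨x, (le_of_mul_le_mul_left hx (hW x)).trans_eq (Tw_sum t _ _ x).symm⟩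

theorem sign_ge (hJ : Bd J) (hQ : ∀ i f, (Q i).mulVec f = Qw (isw J fun _ => 0) i f)
    (hn : 256 < Fintype.card ι) {t : ℝ} (ht : 0 ≤ t) (h1 : t ≤ 1 / 500 * log (Fintype.card ι)) :
    ∃ x, 1 / 2 < Tw Q t (fun y => Real.sign (∑ i, spin (x i) * spin (y i))) x := by
  have hW := isw_pos J fun _ => 0
  obtain ⟨x, hx⟩ := exists_start hW hQ ht
  refine ⟨x, ?_⟩
  have hn' : (256 : ℝ) < Fintype.card ι := by exact_mod_cast hn
  have h2 := var_le hJ hQ (f := fun y => ∑ i, spin (x i) * spin (y i)) (c := Fintype.card ι)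
    (Nat.cast_nonneg _) ht (fun y => by
      have e : ∀ j, dd j (fun y => ∑ i, spin (x i) * spin (y i)) y = spin (x j) := fun j => by
        rw [dd, ← sum_sub_distrib, sum_eq_single j (fun i _ hi => by
          rw [update_of_ne hi, update_of_ne hi, sub_self]) (by simp)]
        simp
      simp [Nw, e, spin_sq]) x
  generalize (Fintype.card ι : ℝ) = N at *
  obtain ⟨f, hf⟩ : ∃ f : (ι → Bool) → ℝ, ∀ y, ∑ i, spin (x i) * spin (y i) = f y := ⟨_, fun _ => rfl⟩
  simp only [hf] at hx h2 ⊢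
  change _ ≤ Tw Q t f x at hx
  change _ ≤ Tw Q t f x ^ 2 + _ at h2
  obtain ⟨M, hM⟩ : ∃ M, M = Tw Q t f x := ⟨_, rfl⟩
  rw [← hM] at hx h2
  have M0 : 0 < M := lt_of_lt_of_le (mul_pos (by linarith) (exp_pos _)) hx
  have h3 := Tw_mono hW hQ ht (f := fun y => -2 / M ^ 2 * f y ^ 2 + 1 * (4 / M * f y + -1 * 1))
    (g := fun y => Real.sign (f y)) (fun y => by
      have e : -2 / M ^ 2 * f y ^ 2 + 1 * (4 / M * f y + -1 * 1) = 1 - 2 * (f y / M - 1) ^ 2 := by
        field_simp
        ring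
      rw [e]
      rcases lt_or_ge 0 (f y) with h | h
      · rw [Real.sign_of_pos h]
        linarith [sq_nonneg (f y / M - 1)]
      · have a := div_nonpos_of_nonpos_of_nonneg h M0.le
        rcases Real.sign_apply_eq (f y) with e | e | e <;> rw [e] <;> nlinarith) x
  rw [Tw_lin, Tw_lin t (4 / M) (-1) f fun _ => 1, Tw_const hW hQ, ← hM] at h3
  refine lt_of_lt_of_le ?_ h3
  have b1 : exp (209 * t) ^ 2 ≤ N := by
    rw [sq, ← exp_add, ← le_log_iff_exp_le (by linarith)]
    linarith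
  have b2 : 16 * exp (209 * t) < N := by
    refine lt_of_pow_lt_pow_left₀ 2 (by linarith) ?_
    nlinarith
  have b3 : exp (200 * t) * t ≤ exp (209 * t) * exp (-4 * t) ^ 2 := by
    rw [sq, ← exp_add, ← exp_add, show 209 * t + (-4 * t + -4 * t) = 200 * t + t by ring, exp_add]
    exact mul_le_mul_of_nonneg_left (by linarith [add_one_le_exp t]) (exp_pos _).le
  have b4 : (N * exp (-4 * t)) ^ 2 ≤ M ^ 2 :=
    pow_le_pow_left₀ (mul_pos (by linarith) (exp_pos _)).le hx 2
  have b5 : 16 * (exp (200 * t) * N * t) < M ^ 2 := by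
    have c1 := mul_lt_mul_of_pos_right b2 (mul_pos (by linarith : 0 < N) (pow_pos (exp_pos (-4 * t)) 2))
    nlinarith [mul_le_mul_of_nonneg_left b3 (by linarith : 0 ≤ 16 * N)]
  have b6 : -2 / M ^ 2 * (M ^ 2 + M ^ 2 / 4) < -2 / M ^ 2 * Tw Q t (fun y => f y ^ 2) x :=
    mul_lt_mul_of_neg_left (by linarith) (div_neg_of_neg_of_pos (by norm_num) (by positivity))
  have b7 : -2 / M ^ 2 * (M ^ 2 + M ^ 2 / 4) = -(5 / 2) := by field_simp; ring
  rw [div_mul_cancel₀ _ M0.ne']
  linarith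

end Gen

variable {n : ℕ}

theorem det_low {β : ℝ} {g : Pair n → ℝ} (hJ : Bd (Jm β g)) (hn : 256 < n) :
    1 / 500 * log n ≤ tmix β g ∧ ∀ t, 0 ≤ t → t ≤ 1 / 500 * log n → ∃ x, 1 / 4 < tv β g t x := by
  have : Nonempty (Fin n) := ⟨⟨0, by omega⟩⟩
  have key : ∀ t, 0 ≤ t → t ≤ 1 / 500 * log n → ∃ x, 1 / 4 < tv β g t x := fun t h0 h1 => by
    obtain ⟨x, hx⟩ := sign_ge hJ heat_mulVec (by simpa using hn) h0 (by simpa using h1)
    refine ⟨x, ?_⟩
    have h2 := P150C.Eig_odd β g (f := fun y => Real.sign (∑ i, spin (x i) * spin (y i))) fun y => by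
      rw [← Real.sign_neg, ← sum_neg_distrib]
      congr 1
      exact sum_congr rfl fun i _ => by rcases h : y i <;> simp [h]
    have s1 : ∀ y : Conf n, |Real.sign (∑ i, spin (x i) * spin (y i))| ≤ 1 := fun y => by
      rcases Real.sign_apply_eq (∑ i, spin (x i) * spin (y i)) with e | e | e <;> simp [e]
    have hZ := sumW_pos (isw_pos (Jm β g) fun _ => 0)
    have h3 : ∑ y, gibbs β g y * Real.sign (∑ i, spin (x i) * spin (y i)) = 0 := by
      simp only [gibbs_eq, div_mul_eq_mul_div, ← sum_div]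
      exact div_eq_zero_iff.2 (Or.inl h2)
    have h4 : ∑ y, (kern β g t x y - gibbs β g y) * Real.sign (∑ i, spin (x i) * spin (y i)) ≤
        ∑ y, |kern β g t x y - gibbs β g y| := sum_le_sum fun y _ =>
      (le_abs_self _).trans ((abs_mul _ _).trans_le (mul_le_of_le_one_right (abs_nonneg _) (s1 y)))
    simp only [sub_mul, sum_sub_distrib, h3, sub_zero] at h4
    have h5 : 1 / 2 < ∑ y, kern β g t x y * Real.sign (∑ i, spin (x i) * spin (y i)) := hx
    rw [tv]
    linarith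
  refine ⟨le_csInf (P150S.Bot_mix (by omega) β g) fun t ht => le_of_not_gt fun h => ?_, key⟩
  obtain ⟨x, hx⟩ := key t ht.1 h.le
  exact hx.not_ge (ht.2 x)

theorem low (β : ℝ) (h0 : 0 ≤ β) (h1 : β ≤ 1) :
    Tendsto (fun n : ℕ => disorder n {g : Pair n → ℝ | ¬ (1 / 500 * log n ≤ tmix β g ∧
      ∀ t, 0 ≤ t → t ≤ 1 / 500 * log n → ∃ x, 1 / 4 < tv β g t x)}) atTop (𝓝 0) := by
  refine tendsto_of_tendsto_of_tendsto_of_le_of_le' tendsto_const_nhds
    (tl_tendsto (ε := 1 / 4 / 50000) (by positivity)) (Eventually.of_forall fun _ => zero_le) ?_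
  filter_upwards [eventually_gt_atTop 256] with n hn
  refine le_trans (MeasureTheory.measure_mono ?_)
    (bad_le (n := n) (β := 1 / 4) (η := 1 / 4) (by norm_num) (by norm_num) (by norm_num) (by omega))
  refine fun g hg hG => hg (det_low ?_ hn)
  have e : ∀ i j, Jm β g i j = 4 * β * Jm (1 / 4) g i j := fun i j => by rw [Jm, Jm]; ring
  refine ⟨Jm_symm, Jm_diag, fun u => ?_, fun i => ?_, fun i j => ?_⟩
  · have a1 := hG.1.quad u
    have a2 := hG.2 u
    have a3 : 0 ≤ ∑ i, u i ^ 2 := sum_nonneg fun _ _ => sq_nonneg _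
    simp only [e, mul_assoc (4 * β), ← mul_sum]
    rw [abs_mul, abs_of_nonneg (by linarith)]
    exact mul_le_mul (by linarith) (abs_le.2 ⟨by linarith, by linarith⟩) (abs_nonneg _) (by norm_num)
  · simp only [e, mul_pow, ← mul_sum]
    have := hG.1.row i
    have a : 0 ≤ ∑ j, Jm (1 / 4) g i j ^ 2 := sum_nonneg fun _ _ => sq_nonneg _
    nlinarith [mul_le_mul (show β ^ 2 ≤ 1 by nlinarith) this a zero_le_one]
  · rw [e, abs_mul, abs_of_nonneg (by linarith)]
    have := hG.1.small i j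
    nlinarith [abs_nonneg (Jm (1 / 4) g i j)]

end

end Vale.Agent.P150L
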