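import Vale.Agent.P150S.Bot

/-! The semigroup of the heat-bath chain: derivative, positivity, symmetry, comparison. -/

set_option linter.unusedSectionVars false

namespace Vale.Agent.P150L

open Real Finset Vale.Agent.P150

noncomputable section

variable {ι : Type} [Fintype ι] [DecidableEq ι] {W f g : (ι → Bool) → ℝ}

/-- The generator on functions. -/
def Lw (W f : (ι → Bool) → ℝ) (x : ι → Bool) : ℝ := ∑ i, (Qw W i f x - f x)

/-- The semigroup on functions. -/
def Tw (Q : ι → Matrix (ι → Bool) (ι → Bool) ℝ) (t : ℝ) (f : (ι → Bool) → ℝ) : (ι → Bool) → ℝ :=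
  (NormedSpace.exp (t • ∑ i, (Q i - 1))).mulVec f

variable {Q : ι → Matrix (ι → Bool) (ι → Bool) ℝ}

theorem gen_mul (hQ : ∀ i f, (Q i).mulVec f = Qw W i f) (f : (ι → Bool) → ℝ) :
    (∑ i, (Q i - 1)).mulVec f = Lw W f := by
  funext x
  simp only [Matrix.sum_mulVec, Matrix.sub_mulVec, Matrix.one_mulVec, hQ, Finset.sum_apply,
    Pi.sub_apply, Lw]

open scoped Matrix.Norms.Operator in
set_option backward.isDefEq.respectTransparency false in
theorem exp_deriv (S : Matrix (ι → Bool) (ι → Bool) ℝ) (t : ℝ) (x y : ι → Bool) :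
    HasDerivAt (fun u : ℝ => NormedSpace.exp (u • S) x y) ((NormedSpace.exp (t • S) * S) x y) t ∧
    HasDerivAt (fun u : ℝ => NormedSpace.exp (u • S) x y) ((S * NormedSpace.exp (t • S)) x y) t :=
  ⟨(LinearMap.toContinuousLinearMap (Matrix.entryLinearMap ℝ ℝ x y)).hasFDerivAt.comp_hasDerivAt t
      (hasDerivAt_exp_smul_const S t),
    (LinearMap.toContinuousLinearMap (Matrix.entryLinearMap ℝ ℝ x y)).hasFDerivAt.comp_hasDerivAt t
      (hasDerivAt_exp_smul_const' S t)⟩

theorem Tw_deriv (hQ : ∀ i f, (Q i).mulVec f = Qw W i f) (f : (ι → Bool) → ℝ) (t : ℝ)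
    (x : ι → Bool) : HasDerivAt (fun u => Tw Q u f x) (Lw W (Tw Q t f) x) t := by
  have h := HasDerivAt.fun_sum fun y (_ : y ∈ univ) =>
    (exp_deriv (∑ i, (Q i - 1)) t x y).2.mul_const (f y)
  rw [← gen_mul hQ, Tw, Matrix.mulVec_mulVec]
  exact h

theorem Tw_zero (f : (ι → Bool) → ℝ) : Tw Q 0 f = f := by
  rw [Tw, zero_smul, NormedSpace.exp_zero, Matrix.one_mulVec]

theorem Tw_add (s t : ℝ) (f : (ι → Bool) → ℝ) : Tw Q (s + t) f = Tw Q s (Tw Q t f) := by
  rw [Tw, Tw, Tw, Matrix.mulVec_mulVec, add_smul,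
    Matrix.exp_add_of_commute _ _ (((Commute.refl _).smul_left s).smul_right t)]

theorem Tw_lin (t a b : ℝ) (f g : (ι → Bool) → ℝ) (x : ι → Bool) :
    Tw Q t (fun y => a * f y + b * g y) x = a * Tw Q t f x + b * Tw Q t g x := by
  simp only [Tw, Matrix.mulVec, dotProduct, mul_sum, ← sum_add_distrib]
  exact sum_congr rfl fun y _ => by ring

theorem Tw_sum (t : ℝ) (a : ι → ℝ) (f : ι → (ι → Bool) → ℝ) (x : ι → Bool) :
    Tw Q t (fun y => ∑ i, a i * f i y) x = ∑ i, a i * Tw Q t (f i) x := by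
  simp only [Tw, Matrix.mulVec, dotProduct, mul_sum]
  rw [sum_comm]
  exact sum_congr rfl fun i _ => sum_congr rfl fun y _ => by ring

theorem Qw_mono (hW : ∀ x, 0 < W x) (h : ∀ y, f y ≤ g y) (i : ι) (x : ι → Bool) :
    Qw W i f x ≤ Qw W i g x :=
  div_le_div_of_nonneg_right (add_le_add (mul_le_mul_of_nonneg_left (h _) (hW _).le)
    (mul_le_mul_of_nonneg_left (h _) (hW _).le)) (add_pos (hW _) (hW _)).le

theorem Qw_const (hW : ∀ x, 0 < W x) (c : ℝ) (i : ι) (x : ι → Bool) : Qw W i (fun _ => c) x = c :=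
  Qw_of_ind hW (fun _ _ => rfl) x

variable [Nonempty ι]

theorem Tw_mono (hW : ∀ x, 0 < W x) (hQ : ∀ i f, (Q i).mulVec f = Qw W i f) {t : ℝ} (ht : 0 ≤ t)
    (h : ∀ y, f y ≤ g y) (x : ι → Bool) : Tw Q t f x ≤ Tw Q t g x := by
  have h1 : ∀ k y, (Pw W)^[k] f y ≤ (Pw W)^[k] g y := fun k => by
    induction k with
    | zero => exact h
    | succ k ih =>
      intro y
      rw [Function.iterate_succ_apply', Function.iterate_succ_apply']
      exact div_le_div_of_nonneg_right (sum_le_sum fun i _ => Qw_mono hW ih i y) card_pos'.le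
  exact le_of_mul_le_mul_left (hasSum_le (fun k => mul_le_mul_of_nonneg_left
    (mul_le_mul_of_nonneg_left (h1 k x) (by positivity)) (by positivity))
    (P150S.Bot_series hQ t f x) (P150S.Bot_series hQ t g x)) (exp_pos _)

theorem Tw_const (hW : ∀ x, 0 < W x) (hQ : ∀ i f, (Q i).mulVec f = Qw W i f) (t c : ℝ)
    (x : ι → Bool) : Tw Q t (fun _ => c) x = c := by
  have h := P150S.Bot_series hQ t (fun _ => c) x
  have h1 : Pw W (fun _ => c) = fun _ => c := funext fun y => by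
    simp only [Pw, Qw_const hW, sum_const, card_univ, nsmul_eq_mul]
    exact mul_div_cancel_left₀ _ card_pos'.ne'
  have h2 : HasSum (fun k : ℕ => (k.factorial : ℝ)⁻¹ * (t * Fintype.card ι) ^ k)
      (exp (t * Fintype.card ι)) := by
    rw [Real.exp_eq_exp_ℝ]
    exact NormedSpace.exp_series_hasSum_exp' (𝕂 := ℝ) _
  simp only [Function.iterate_fixed h1, ← mul_assoc] at h
  exact mul_left_cancel₀ (exp_pos _).ne' (h.unique (h2.mul_right c))

theorem Tw_symm (hW : ∀ x, 0 < W x) (hQ : ∀ i f, (Q i).mulVec f = Qw W i f) (t : ℝ)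
    (f g : (ι → Bool) → ℝ) :
    Ex W (fun x => g x * Tw Q t f x) = Ex W fun x => Tw Q t g x * f x := by
  have a1 := hasSum_sum fun y (_ : y ∈ univ) => (P150S.Bot_series hQ t f y).mul_left (W y * g y)
  have a2 := hasSum_sum fun y (_ : y ∈ univ) => (P150S.Bot_series hQ t g y).mul_left (W y * f y)
  have a3 : ∀ k : ℕ, ∑ y, W y * f y * ((k.factorial : ℝ)⁻¹ * ((t * Fintype.card ι) ^ k *
      (Pw W)^[k] g y)) = ∑ y, W y * g y * ((k.factorial : ℝ)⁻¹ * ((t * Fintype.card ι) ^ k *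
      (Pw W)^[k] f y)) := fun k => by
    have b := congrArg ((k.factorial : ℝ)⁻¹ * (t * Fintype.card ι) ^ k * ·) (Ex_iter_symm hW k f g)
    simp only [Ex, mul_sum] at b
    exact (sum_congr rfl fun y _ => by ring).trans (b.symm.trans (sum_congr rfl fun y _ => by ring))
  simp only [a3] at a2
  have a4 := a1.unique a2
  refine mul_left_cancel₀ (exp_pos (t * Fintype.card ι)).ne' ?_
  simp only [Ex, mul_sum, Tw]
  exact (sum_congr rfl fun y _ => by ring).trans (a4.trans (sum_congr rfl fun y _ => by ring))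

/-- The comparison principle. -/
theorem cmp (hW : ∀ x, 0 < W x) (hQ : ∀ i f, (Q i).mulVec f = Qw W i f) {t : ℝ} (ht : 0 ≤ t)
    {F F' : ℝ → (ι → Bool) → ℝ} (hF : ∀ s y, HasDerivAt (fun u => F u y) (F' s y) s)
    (h : ∀ s ∈ Set.Icc 0 t, ∀ y, F' s y ≤ Lw W (F s) y) (x : ι → Bool) :
    F t x ≤ Tw Q t (F 0) x := by
  have h1 : ∀ s, HasDerivAt (fun u => Tw Q (t - u) (F u) x)
      (Tw Q (t - s) (fun y => 1 * F' s y + -1 * Lw W (F s) y) x) s := fun s => by
    have a := HasDerivAt.fun_sum fun y (_ : y ∈ univ) =>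
      ((exp_deriv (∑ i, (Q i - 1)) (t - s) x y).1.comp s
        ((hasDerivAt_id s).const_sub t)).mul (hF s y)
    refine a.congr_deriv ?_
    rw [Tw_lin, ← gen_mul hQ, Tw, Tw, Matrix.mulVec_mulVec]
    simp only [Matrix.mulVec, dotProduct, sum_add_distrib, Function.comp_apply, id, mul_sum]
    rw [add_comm]
    congr 1 <;> exact sum_congr rfl fun y _ => by ring
  have h2 : AntitoneOn (fun u => Tw Q (t - u) (F u) x) (Set.Icc 0 t) := by
    refine antitoneOn_of_deriv_nonpos (convex_Icc _ _)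
      (fun s _ => (h1 s).continuousAt.continuousWithinAt)
      (fun s _ => (h1 s).differentiableAt.differentiableWithinAt) fun s hs => ?_
    have hs' := interior_subset hs
    rw [(h1 s).deriv, ← Tw_const hW hQ (t - s) 0 x]
    exact Tw_mono hW hQ (sub_nonneg.2 hs'.2) (fun y => by linarith [h s hs' y]) x
  have h3 := h2 ⟨le_rfl, ht⟩ ⟨ht, le_rfl⟩ ht
  simpa only [sub_self, Tw_zero, sub_zero] using h3

end

end Vale.Agent.P150L
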